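import Mathlib.Analysis.SpecialFunctions.Pow.Asymptotics
import Mathlib.Analysis.Complex.ExponentialBounds
import Mathlib.Tactic.Linarith
import Mathlib.Tactic.NormNum
import Mathlib.Tactic.Positivity

/-!
P181 (LK): the choice of `s` for all `b` between `10^8 a log^2 a` and `a^(8/7)`.
-/

set_option autoImplicit false

namespace Vale.Agent.P181.H439

open Filter

theorem num8 : ∀ᶠ a : ℕ in atTop, ∀ b : ℕ,
    (10 : ℝ) ^ 8 * (a : ℝ) * (Real.log a) ^ 2 ≤ b → (b : ℝ) ≤ (a : ℝ) ^ ((8 : ℝ) / 7) →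
    ∃ s : ℕ, 1 ≤ s ∧ 43680 * (s + 1) ^ 2 ≤ b / a ∧
      (10 : ℝ) ^ 6 * (s : ℝ) ^ 13 * ((b / a : ℕ) : ℝ) ^ 6 * Real.log a ≤ a ∧
      a * (a * b + 17) ≤ 2 ^ (s / 4) := by
  have hL : Tendsto (fun a : ℕ => Real.log (a : ℝ)) atTop atTop :=
    Real.tendsto_log_atTop.comp tendsto_natCast_atTop_atTop
  have h1 := hL.eventually_ge_atTop 10
  have h2 : ∀ᶠ a : ℕ in atTop,
      (10 : ℝ) ^ 6 * 21 ^ 13 * (Real.log a) ^ 14 ≤ (a : ℝ) ^ ((1 : ℝ) / 7) := by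
    have h := (isLittleO_log_rpow_rpow_atTop (14 : ℝ) (show (0 : ℝ) < 1 / 7 by norm_num)).def
      (show (0 : ℝ) < ((10 : ℝ) ^ 6 * 21 ^ 13)⁻¹ by positivity)
    have h' := (tendsto_natCast_atTop_atTop (R := ℝ)).eventually h
    filter_upwards [h', h1] with a h3 h4
    rw [Real.norm_eq_abs, Real.norm_eq_abs, abs_of_nonneg (by positivity),
      abs_of_nonneg (by positivity)] at h3
    have h5 : Real.log (a : ℝ) ^ (14 : ℝ) = Real.log (a : ℝ) ^ 14 := by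
      rw [← Real.rpow_natCast]; norm_num
    rw [h5, ← div_eq_inv_mul, le_div_iff₀ (by positivity)] at h3
    linarith [h3]
  filter_upwards [h1, h2, eventually_ge_atTop 1] with a hL10 hpol ha1 b hb1 hb2
  have ha0 : (0 : ℝ) < a := by exact_mod_cast ha1
  obtain ⟨L, hLdef⟩ : ∃ L, L = Real.log (a : ℝ) := ⟨_, rfl⟩
  rw [← hLdef] at hL10 hpol hb1 ⊢
  obtain ⟨t, ht⟩ : ∃ t, t = (a : ℝ) ^ ((1 : ℝ) / 7) := ⟨_, rfl⟩
  rw [← ht] at hpol
  have ht0 : 0 < t := by rw [ht]; positivity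
  have ht7 : t ^ 7 = a := by
    rw [ht, ← Real.rpow_natCast, ← Real.rpow_mul ha0.le]; norm_num
  have ht8 : (a : ℝ) ^ ((8 : ℝ) / 7) = t ^ 8 := by
    rw [ht, ← Real.rpow_natCast, ← Real.rpow_mul ha0.le]; norm_num
  rw [ht8] at hb2
  have ht2 : 2 ≤ t := by
    refine le_trans ?_ hpol
    have : (1 : ℝ) ≤ L ^ 14 := one_le_pow₀ (by linarith)
    nlinarith
  obtain ⟨s, hs⟩ : ∃ s, s = ⌈20 * L⌉₊ := ⟨_, rfl⟩
  have hs1 : 20 * L ≤ s := by rw [hs]; exact Nat.le_ceil _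
  have hs2 : (s : ℝ) < 20 * L + 1 := by rw [hs]; exact Nat.ceil_lt_add_one (by linarith)
  obtain ⟨q, hq⟩ : ∃ q, q = b / a := ⟨_, rfl⟩
  have hqa : ((q : ℕ) : ℝ) * a ≤ b := by rw [hq]; exact_mod_cast Nat.div_mul_le_self b a
  have hqt : (q : ℝ) ≤ t := by
    have h3 : (q : ℝ) * t ^ 7 ≤ t * t ^ 7 := by rw [ht7]; nlinarith [hqa, hb2, ht7]
    exact le_of_mul_le_mul_right h3 (by positivity)
  refine ⟨s, ?_, ?_, ?_, ?_⟩
  · have : (0 : ℝ) < s := by linarith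
    exact_mod_cast this
  · rw [Nat.le_div_iff_mul_le (by omega)]
    have h3 : (43680 : ℝ) * ((s : ℝ) + 1) ^ 2 * a ≤ b := by
      refine le_trans ?_ hb1
      have h4 : ((s : ℝ) + 1) ^ 2 ≤ (21 * L) ^ 2 * 1.1 := by nlinarith
      nlinarith [mul_pos ha0 ha0, mul_nonneg ha0.le (sq_nonneg L)]
    exact_mod_cast h3
  · rw [← hq]
    have h3 : (s : ℝ) ^ 13 ≤ (21 * L) ^ 13 := by gcongr; linarith
    have h4 : (q : ℝ) ^ 6 ≤ t ^ 6 := by gcongr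
    calc (10 : ℝ) ^ 6 * (s : ℝ) ^ 13 * (q : ℝ) ^ 6 * L
        ≤ (10 : ℝ) ^ 6 * (21 * L) ^ 13 * t ^ 6 * L := by gcongr
      _ = ((10 : ℝ) ^ 6 * 21 ^ 13 * L ^ 14) * t ^ 6 := by ring
      _ ≤ t * t ^ 6 := by gcongr
      _ = a := by rw [← ht7]; ring
  · have hts : t = Real.exp (L / 7) := by
      rw [ht, Real.rpow_def_of_pos ha0, hLdef]; ring_nf
    have h3 : (a : ℝ) * (a * b + 17) ≤ 2 * t ^ 22 := by
      have h4 : (17 : ℝ) ≤ t ^ 15 := by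
        calc (17 : ℝ) ≤ 2 ^ 15 := by norm_num
          _ ≤ t ^ 15 := by gcongr
      calc (a : ℝ) * (a * b + 17) ≤ t ^ 7 * (t ^ 7 * t ^ 8 + t ^ 15) := by rw [← ht7]; gcongr
        _ = 2 * t ^ 22 := by ring
    have h5 : (2 : ℝ) * t ^ 22 ≤ 2 ^ (s / 4) := by
      have h6 : (5 * L - 1 : ℝ) ≤ ((s / 4 : ℕ) : ℝ) := by
        have h7 : s ≤ 4 * (s / 4) + 3 := by omega
        have h8 : (s : ℝ) ≤ 4 * ((s / 4 : ℕ) : ℝ) + 3 := by exact_mod_cast h7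
        linarith
      have h9 := Real.log_two_gt_d9
      have h9' := Real.log_two_lt_d9
      have h10 : (2 : ℝ) ^ (s / 4) = Real.exp (Real.log 2 * ((s / 4 : ℕ) : ℝ)) := by
        rw [← Real.rpow_natCast, Real.rpow_def_of_pos (by norm_num)]
      have h11 : (2 : ℝ) * t ^ 22 = Real.exp (Real.log 2 + 22 * (L / 7)) := by
        rw [Real.exp_add, Real.exp_log (by norm_num), hts, ← Real.exp_nat_mul]; norm_num
      rw [h10, h11, Real.exp_le_exp]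
      have h12 : Real.log 2 * (5 * L - 1) ≤ Real.log 2 * ((s / 4 : ℕ) : ℝ) := by gcongr
      nlinarith
    exact_mod_cast h3.trans h5

end Vale.Agent.P181.H439
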