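import Vale.Agent.P181.LK.Spec

/-! Row R2 of `LK`: removal of all special groups, from the removal of one. -/

set_option autoImplicit false

namespace Vale.Agent.P181.H439

open Finset Vale.Agent.P181.LK

theorem sprU_none {B : Type} {a u : ℕ} {sp : B → Option (Fin u)} {τ : Fin u → Equiv.Perm (Fin a)}
    {e : B → Fin a} {p : B} (h : sp p = none) : sprU sp τ e p = e p := by
  unfold sprU
  rw [h]

theorem sprU_some {B : Type} {a u : ℕ} {sp : B → Option (Fin u)} {τ : Fin u → Equiv.Perm (Fin a)}
    {e : B → Fin a} {p : B} {k : Fin u} (h : sp p = some k) : sprU sp τ e p = τ k (e p) := by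
  unfold sprU
  rw [h]

theorem spr_of_mem {B : Type} {a : ℕ} {s : Fin a → B} {σ : Equiv.Perm (Fin a)} {e : B → Fin a}
    (hs : ∀ i, e (s i) = i) (i : Fin a) : spr s σ e (s i) = σ i := by
  classical
  unfold spr
  have h : ∃ j, s j = s i := ⟨i, rfl⟩
  rw [dif_pos h]
  have h1 := h.choose_spec
  have h2 : h.choose = i := by
    have h3 := congrArg e h1
    rwa [hs, hs] at h3
  rw [h2]

theorem spr_of_notMem {B : Type} {a : ℕ} {s : Fin a → B} {σ : Equiv.Perm (Fin a)} {e : B → Fin a}
    {p : B} (h : ¬ ∃ j, s j = p) : spr s σ e p = e p := by
  classical
  unfold spr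
  rw [dif_neg h]

theorem rowR2 : Vale.Agent.P181.LK.RowR1 → Vale.Agent.P181.LK.RowR2 := by
  intro h1
  classical
  intro B _ _ a u G r V gr Z hdisj hr β e0 π hπ h1r H
  have key : ∀ T : Finset (Fin u), ∀ e : B → Fin a, (∀ p, (∀ g, p ∉ Z g) → e p = e0 p) →
      (∀ g i, ((Z g).filter (fun p => e p = i)).card = β g i) →
      ∀ sp : B → Option (Fin u), (∀ p k, sp p = some k → k ∉ T ∧ p ∈ Z (gr k)) →
      (∀ k, k ∉ T → ∀ i, ∃ p, sp p = some k ∧ e p = i) →
      (∀ k p p', sp p = some k → sp p' = some k → e p = e p' → p = p') →
      ∑ τ : Fin u → Equiv.Perm (Fin a), V (sprU sp τ e) = 0 := by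
    intro T
    induction T using Finset.induction_on with
    | empty =>
      intro e he he' sp h2 h3 h4
      exact H e he he' sp (fun p k h => (h2 p k h).2) (fun k i => h3 k (notMem_empty k) i) h4
    | insert k0 T hk0 ih =>
      intro e he he' sp h2 h3 h4
      obtain ⟨g0, hg0⟩ : ∃ g0, g0 = gr k0 := ⟨_, rfl⟩
      obtain ⟨Z', hZ'⟩ : ∃ Z', Z' = (Z g0).filter (fun p => sp p = none) := ⟨_, rfl⟩
      have hZmem : ∀ p, p ∈ Z' ↔ p ∈ Z g0 ∧ sp p = none := by
        intro p
        rw [hZ', mem_filter]
      -- splitting of the counts
      have hsplit : ∀ (f : B → Fin a) i, ((Z g0).filter (fun p => f p = i)).card =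
          (Z'.filter (fun p => f p = i)).card +
            ((Z g0).filter (fun p => ¬ sp p = none ∧ f p = i)).card := by
        intro f i
        rw [hZ', filter_filter]
        have h5 : ((Z g0).filter (fun p => f p = i)).card =
            (((Z g0).filter (fun p => f p = i)).filter (fun p => sp p = none)).card +
            (((Z g0).filter (fun p => f p = i)).filter (fun p => ¬ sp p = none)).card :=
          (card_filter_add_card_filter_not _).symm
        rw [h5, filter_filter, filter_filter]
        congr 2
        · ext p
          simp only [mem_filter]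
          tauto
        · ext p
          simp only [mem_filter]
          tauto
      refine h1 B a (fun e' => ∑ τ : Fin u → Equiv.Perm (Fin a), V (sprU sp τ e')) Z'
        (fun i => (Z'.filter (fun p => e p = i)).card) e (π g0) ?_ ?_ e (fun _ _ => rfl)
        (fun _ => rfl)
      · intro m
        have h5 := hπ g0 m
        have h6 := hsplit e (π g0 m)
        rw [he'] at h6
        have h7 : ((Z g0).filter (fun p => ¬ sp p = none ∧ e p = π g0 m)).card + 1 ≤ r := by
          have hk : k0 ∈ univ.filter (fun k => gr k = g0) := by
            rw [mem_filter]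
            exact ⟨mem_univ _, hg0.symm⟩
          have h8 : ((Z g0).filter (fun p => ¬ sp p = none ∧ e p = π g0 m)).card ≤
              ((univ.filter (fun k => gr k = g0)).erase k0).card := by
            refine card_le_card_of_injOn (fun p => (sp p).getD k0) ?_ ?_
            · intro p hp
              have hp' := mem_filter.1 (mem_coe.1 hp)
              obtain ⟨k, hk'⟩ := Option.ne_none_iff_exists'.1 hp'.2.1
              have h9 := h2 p k hk'
              have h10 : (fun p => (sp p).getD k0) p = k := by
                show (sp p).getD k0 = k
                rw [hk']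
                rfl
              rw [h10]
              refine mem_coe.2 (mem_erase.2 ⟨?_, mem_filter.2 ⟨mem_univ _, ?_⟩⟩)
              · rintro rfl
                exact h9.1 (mem_insert_self _ _)
              · by_contra hne
                exact (Finset.disjoint_left.1 (hdisj _ _ hne)) h9.2 hp'.1
            · intro p hp p' hp' hpp
              have hp1 := mem_filter.1 (mem_coe.1 hp)
              have hp2 := mem_filter.1 (mem_coe.1 hp')
              obtain ⟨k, hk1⟩ := Option.ne_none_iff_exists'.1 hp1.2.1
              obtain ⟨k', hk2⟩ := Option.ne_none_iff_exists'.1 hp2.2.1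
              have h9 : k = k' := by
                have h10 : (sp p).getD k0 = (sp p').getD k0 := hpp
                rw [hk1, hk2] at h10
                exact h10
              subst h9
              exact h4 k p p' hk1 hk2 (hp1.2.2.trans hp2.2.2.symm)
          rw [card_erase_of_mem hk] at h8
          have h9 := hr g0
          have h10 : 0 < (univ.filter (fun k => gr k = g0)).card := card_pos.2 ⟨k0, hk⟩
          omega
        show (m : ℕ) + 1 ≤ (Z'.filter (fun p => e p = π g0 m)).card
        omega
      · intro e' hee hcount s hs hes
        have hee' : ∀ p, ¬ sp p = none → e' p = e p := by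
          intro p hp
          refine hee p fun hpZ => hp ((hZmem p).1 hpZ).2
        have hadm1 : ∀ p, (∀ g, p ∉ Z g) → e' p = e0 p := by
          intro p hp
          rw [hee p fun hpZ => hp g0 ((hZmem p).1 hpZ).1]
          exact he p hp
        have hadm2 : ∀ g i, ((Z g).filter (fun p => e' p = i)).card = β g i := by
          intro g i
          by_cases hg : g = g0
          · subst hg
            rw [hsplit e' i, hcount i, ← he' g i, hsplit e i]
            congr 2
            refine filter_congr fun p _ => ?_
            constructor
            · rintro ⟨h5, h6⟩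
              exact ⟨h5, by rw [← hee' p h5]; exact h6⟩
            · rintro ⟨h5, h6⟩
              exact ⟨h5, by rw [hee' p h5]; exact h6⟩
          · rw [← he' g i]
            congr 1
            refine filter_congr fun p hp => ?_
            rw [hee p fun hpZ => (Finset.disjoint_left.1 (hdisj g g0 hg)) hp ((hZmem p).1 hpZ).1]
        have hsnone : ∀ i, sp (s i) = none := fun i => ((hZmem _).1 (hs i)).2
        obtain ⟨sp', hsp'⟩ : ∃ sp' : B → Option (Fin u), ∀ p,
            sp' p = if ∃ i, s i = p then some k0 else sp p := ⟨_, fun _ => rfl⟩
        have hspa : ∀ i, sp' (s i) = some k0 := by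
          intro i
          rw [hsp', if_pos ⟨i, rfl⟩]
        have hspb : ∀ p, (¬ ∃ i, s i = p) → sp' p = sp p := by
          intro p hp
          rw [hsp', if_neg hp]
        have hspc : ∀ p, ¬ sp p = none → ¬ ∃ i, s i = p := by
          rintro p hp ⟨i, rfl⟩
          exact hp (hsnone i)
        have hih := ih e' hadm1 hadm2 sp' (by
          intro p k hpk
          by_cases h : ∃ i, s i = p
          · obtain ⟨i, rfl⟩ := h
            rw [hspa] at hpk
            have h5 : k0 = k := Option.some.inj hpk
            subst h5
            refine ⟨hk0, ?_⟩
            rw [← hg0]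
            exact ((hZmem _).1 (hs i)).1
          · rw [hspb p h] at hpk
            exact ⟨fun h5 => (h2 p k hpk).1 (mem_insert_of_mem h5), (h2 p k hpk).2⟩) (by
          intro k hk i
          by_cases hkk : k = k0
          · subst hkk
            exact ⟨s i, hspa i, hes i⟩
          · obtain ⟨p, hp1, hp2⟩ := h3 k (by
              rw [mem_insert]
              rintro (h5 | h5)
              · exact hkk h5
              · exact hk h5) i
            have h5 : ¬ sp p = none := by rw [hp1]; exact Option.some_ne_none k
            exact ⟨p, by rw [hspb p (hspc p h5)]; exact hp1, by rw [hee' p h5]; exact hp2⟩) (by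
          intro k p p' hp hp' hpp
          by_cases h : ∃ i, s i = p
          · obtain ⟨i, rfl⟩ := h
            rw [hspa] at hp
            have h5 : k0 = k := Option.some.inj hp
            subst h5
            by_cases h' : ∃ i, s i = p'
            · obtain ⟨j, rfl⟩ := h'
              rw [hes, hes] at hpp
              rw [hpp]
            · rw [hspb p' h'] at hp'
              exact absurd (mem_insert_self _ _) (h2 p' k0 hp').1
          · rw [hspb p h] at hp
            by_cases h' : ∃ i, s i = p'
            · obtain ⟨j, rfl⟩ := h'
              rw [hspa] at hp'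
              have h5 : k0 = k := Option.some.inj hp'
              subst h5
              exact absurd (mem_insert_self _ _) (h2 p k0 hp).1
            · rw [hspb p' h'] at hp'
              have h5 : ¬ sp p = none := by rw [hp]; exact Option.some_ne_none k
              have h6 : ¬ sp p' = none := by rw [hp']; exact Option.some_ne_none k
              rw [hee' p h5, hee' p' h6] at hpp
              exact h4 k p p' hp hp' hpp)
        -- the two spreads
        have hspr : ∀ τ : Fin u → Equiv.Perm (Fin a),
            sprU sp' τ e' = sprU sp τ (spr s (τ k0) e') := by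
          intro τ
          funext p
          by_cases h : ∃ i, s i = p
          · obtain ⟨i, rfl⟩ := h
            rw [sprU_some (hspa i), sprU_none (hsnone i), spr_of_mem hes, hes]
          · rcases hq : sp p with _ | k
            · rw [sprU_none (by rw [hspb p h]; exact hq), sprU_none hq, spr_of_notMem h]
            · rw [sprU_some (by rw [hspb p h]; exact hq), sprU_some hq, spr_of_notMem h]
        have hind : ∀ (τ : Fin u → Equiv.Perm (Fin a)) (σ : Equiv.Perm (Fin a)) (f : B → Fin a),
            sprU sp (Function.update τ k0 σ) f = sprU sp τ f := by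
          intro τ σ f
          funext p
          rcases hq : sp p with _ | k
          · rw [sprU_none hq, sprU_none hq]
          · have h5 : k ≠ k0 := by
              rintro rfl
              exact (h2 p k hq).1 (mem_insert_self _ _)
            rw [sprU_some hq, sprU_some hq, Function.update_of_ne h5]
        obtain ⟨Gf, hGf⟩ : ∃ Gf : (Fin u → Equiv.Perm (Fin a)) → ℂ, ∀ τ,
            Gf τ = V (sprU sp τ (spr s (τ k0) e')) := ⟨_, fun _ => rfl⟩
        have hG0 : ∑ τ, Gf τ = 0 := by
          rw [← hih]
          exact Finset.sum_congr rfl fun τ _ => by rw [hGf, hspr]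
        show ∑ σ : Equiv.Perm (Fin a), ∑ τ : Fin u → Equiv.Perm (Fin a),
          V (sprU sp τ (spr s σ e')) = 0
        have h5 : ∀ (σ : Equiv.Perm (Fin a)) (τ : Fin u → Equiv.Perm (Fin a)),
            V (sprU sp τ (spr s σ e')) = Gf (Function.update τ k0 σ) := by
          intro σ τ
          rw [hGf, Function.update_self, hind]
        have h6 : ∑ σ : Equiv.Perm (Fin a), ∑ τ : Fin u → Equiv.Perm (Fin a),
            V (sprU sp τ (spr s σ e')) =
            ∑ x : Equiv.Perm (Fin a) × (Fin u → Equiv.Perm (Fin a)),
              Gf (Function.update x.2 k0 x.1) := by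
          rw [Fintype.sum_prod_type]
          exact Finset.sum_congr rfl fun σ _ => Finset.sum_congr rfl fun τ _ => h5 σ τ
        rw [h6]
        let Φ : Equiv.Perm (Fin a) × (Fin u → Equiv.Perm (Fin a)) ≃
            Equiv.Perm (Fin a) × (Fin u → Equiv.Perm (Fin a)) :=
          { toFun := fun x => (x.2 k0, Function.update x.2 k0 x.1)
            invFun := fun x => (x.2 k0, Function.update x.2 k0 x.1)
            left_inv := fun x => by
              ext1
              · exact Function.update_self _ _ _
              · show Function.update (Function.update x.2 k0 x.1) k0 (x.2 k0) = x.2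
                rw [Function.update_idem, Function.update_eq_self]
            right_inv := fun x => by
              ext1
              · exact Function.update_self _ _ _
              · show Function.update (Function.update x.2 k0 x.1) k0 (x.2 k0) = x.2
                rw [Function.update_idem, Function.update_eq_self] }
        have h7 : ∑ x : Equiv.Perm (Fin a) × (Fin u → Equiv.Perm (Fin a)),
            Gf (Function.update x.2 k0 x.1) =
            ∑ x : Equiv.Perm (Fin a) × (Fin u → Equiv.Perm (Fin a)), Gf x.2 :=
          Equiv.sum_comp Φ fun x => Gf x.2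
        rw [h7, Fintype.sum_prod_type]
        simp only [hG0, Finset.sum_const_zero]
  intro e he he'
  have h2 := key univ e he he' (fun _ => none) (fun p k h => by cases h)
    (fun k hk => absurd (mem_univ k) hk) (fun k p p' h => by cases h)
  have h3 : ∀ τ : Fin u → Equiv.Perm (Fin a), V (sprU (fun _ => none) τ e) = V e := by
    intro τ
    rfl
  simp only [h3, Finset.sum_const, nsmul_eq_mul] at h2
  rcases mul_eq_zero.1 h2 with h4 | h4
  · exfalso
    have h5 : (Finset.univ : Finset (Fin u → Equiv.Perm (Fin a))).card ≠ 0 := by
      rw [Finset.card_univ]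
      exact Fintype.card_ne_zero
    exact h5 (by exact_mod_cast h4)
  · exact h4

end Vale.Agent.P181.H439
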