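import Vale.Agent.P181.LK.Spec
import Mathlib.Data.Fin.Tuple.Sort

/-! Row SORT of `LK`: the sorted sizes. -/

set_option autoImplicit false

namespace Vale.Agent.P181.H439

open Finset

theorem rowSORT : Vale.Agent.P181.LK.RowSORT := by
  intro a r x d ℓ c _ hx hs hm
  refine ⟨Tuple.sort c, fun m => ?_⟩
  by_contra hlt
  have hlt' : c (Tuple.sort c m) < (m : ℕ) + r := not_le.1 hlt
  have h1 : x < (m : ℕ) + r := lt_of_le_of_lt (hx _) hlt'
  have h2 := hm m h1 m.isLt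
  have hmono := Tuple.monotone_sort c
  have h3 : ∑ i, (ℓ - c i) = ∑ j, (ℓ - c (Tuple.sort c j)) :=
    (Equiv.sum_comp (Tuple.sort c) fun i => ℓ - c i).symm
  have h4 : ∑ j ∈ Finset.Iic m, (ℓ - c (Tuple.sort c j)) ≤ ∑ j, (ℓ - c (Tuple.sort c j)) :=
    Finset.sum_le_sum_of_subset (Finset.subset_univ _)
  have h5 : (Finset.Iic m).card • (ℓ + 1 - ((m : ℕ) + r)) ≤
      ∑ j ∈ Finset.Iic m, (ℓ - c (Tuple.sort c j)) := by
    refine Finset.card_nsmul_le_sum _ _ _ fun j hj => ?_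
    have h6 : c (Tuple.sort c j) ≤ c (Tuple.sort c m) := hmono (Finset.mem_Iic.1 hj)
    omega
  rw [Fin.card_Iic, smul_eq_mul] at h5
  omega

end Vale.Agent.P181.H439
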